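import Vale.Agent.P181.H303.Spec2

/-! P181: degree bound for a highest weight vector (second copy of row HW). -/

set_option autoImplicit false

open scoped TensorProduct

namespace Vale.Agent.P181.H508

open Vale.Agent.P181 Vale.Agent.P181.H280 Vale.Agent.P181.H303 Finset

/-- A multilinear form at powers of affine functions of a parameter is a polynomial. -/
lemma exists_poly {A : Type*} [CommRing A] [Algebra ℂ A] {a : ℕ} (b : ℕ)
    (F : MultilinearMap ℂ (fun _ : Fin a => A) ℂ) (y w : Fin a → A) :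
    ∃ p : Polynomial ℂ, ∀ z : ℂ, F (fun i => (y i + z • w i) ^ b) = p.eval z := by
  classical
  refine ⟨∑ r : Fin a → Fin (b + 1), Polynomial.C (F (fun i => ((b.choose (r i) : ℕ) : ℂ) •
    (w i ^ (r i : ℕ) * y i ^ (b - (r i : ℕ))))) * Polynomial.X ^ (∑ i, (r i : ℕ)), ?_⟩
  intro z
  have h1 : (fun i => (y i + z • w i) ^ b) = fun i => ∑ m : Fin (b + 1), (z ^ (m : ℕ)) •
      (((b.choose (m : ℕ) : ℕ) : ℂ) • (w i ^ (m : ℕ) * y i ^ (b - (m : ℕ)))) := by
    funext i
    rw [add_comm (y i), add_pow, Finset.sum_range]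
    apply Finset.sum_congr rfl
    intro m _
    rw [smul_pow, smul_mul_assoc, smul_mul_assoc, mul_comm _ ((b.choose (m : ℕ) : ℕ) : A),
      ← nsmul_eq_mul, ← Nat.cast_smul_eq_nsmul ℂ]
  rw [h1, MultilinearMap.map_sum, Polynomial.eval_finsetSum]
  apply Finset.sum_congr rfl
  intro r _
  rw [MultilinearMap.map_smul_univ]
  simp only [Polynomial.eval_mul, Polynomial.eval_C, Polynomial.eval_pow, Polynomial.eval_X,
    smul_eq_mul, Finset.prod_pow_eq_pow_sum]
  rw [mul_comm]

/-- The functional with coefficient vector `w`. -/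
noncomputable def fn {n : ℕ} (w : EE n) : Module.Dual ℂ (Fin n → ℂ) :=
  ∑ j, w j • (LinearMap.proj j : (Fin n → ℂ) →ₗ[ℂ] ℂ)

lemma fn_apply {n : ℕ} (w : EE n) (v : Fin n → ℂ) : fn w v = ∑ j, w j * v j := by
  simp [fn]

lemma evL_lin {n : ℕ} (w : EE n) : evL n (lin w) = fun v => fn w v := by
  funext v
  rw [evL_apply, fn_apply, lin, map_sum]
  apply Finset.sum_congr rfl
  intro j _
  rw [map_smul, MvPolynomial.aeval_X, smul_eq_mul]

lemma form_pow {a b n : ℕ} (l : (Fin a → Fin b → (Fin n → ℂ)) →₀ ℂ) (w : Fin a → EE n) :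
    formOf l (fun i => lin (w i) ^ b) =
      symEval (fun i => symEval (fun _ : Fin b => fn (w i))) (elOf l) := by
  have h := formOf_lin l (fun i (_ : Fin b) => lin (w i)) (fun i _ => fn (w i))
    (fun i _ => evL_lin (w i))
  rw [← h]
  congr 1
  funext i
  rw [Finset.prod_const, Finset.card_univ, Fintype.card_fin]

lemma lin_add {n : ℕ} (u v : EE n) : lin (u + v) = lin u + lin v := by
  simp [lin, add_smul, Finset.sum_add_distrib]

lemma lin_smul {n : ℕ} (c : ℂ) (u : EE n) : lin (c • u) = c • lin u := by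
  simp [lin, Finset.smul_sum, smul_smul]

/-- The upper triangular matrix. -/
noncomputable def bz {n : ℕ} (e : EE (n + 1)) (z : ℂ) : Matrix (Fin (n + 1)) (Fin (n + 1)) ℂ :=
  fun k j => (if k = j then 1 else 0) + (if k = 0 then (z - 1) * e j / e 0 else 0)

lemma bz_borel {n : ℕ} (e : EE (n + 1)) (z : ℂ) (he : e 0 ≠ 0) (hz : z ≠ 0) :
    IsBorel (bz e z) := by
  constructor
  · intro i j hij
    have h1 : i ≠ j := hij.ne'
    have h2 : i ≠ 0 := by
      intro h
      rw [h] at hij
      exact absurd hij (Fin.not_lt_zero _)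
    simp [bz, h1, h2]
  · intro i
    by_cases hi : i = 0
    · subst hi
      simp only [bz, if_true]
      rw [mul_div_assoc, div_self he]
      simpa using hz
    · simp [bz, hi]

lemma bz_prod {n : ℕ} (e : EE (n + 1)) (z : ℂ) (he : e 0 ≠ 0) (lam : Fin (n + 1) → ℕ) :
    ∏ i, bz e z i i ^ lam i = z ^ lam 0 := by
  rw [Fin.prod_univ_succ]
  have h1 : bz e z 0 0 = z := by
    simp only [bz, if_true]
    rw [mul_div_assoc, div_self he]
    ring
  have h2 : ∀ i : Fin n, bz e z i.succ i.succ = 1 := by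
    intro i
    simp [bz, Fin.succ_ne_zero]
  rw [h1, Finset.prod_eq_one (fun i _ => by rw [h2, one_pow]), mul_one]

/-- The vector moved by the transpose of `n_z`, `s = 1 / z`. -/
noncomputable def nv {n : ℕ} (e : EE (n + 1)) (s : ℂ) (u : EE (n + 1)) : EE (n + 1) :=
  (u + (inner ℂ e u - u 0 / e 0) • e) + s • ((u 0 / e 0 - inner ℂ e u) • e)

lemma fn_comp {n : ℕ} (e : EE (n + 1)) (z : ℂ) (he : e 0 ≠ 0) (hz : z ≠ 0) (u : EE (n + 1)) :
    fn (nv e z⁻¹ u) ∘ₗ Matrix.toLin' (bz e z) = fn (u + ((z - 1) * inner ℂ e u) • e) := by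
  apply LinearMap.ext
  intro v
  rw [LinearMap.comp_apply, fn_apply, fn_apply]
  have h1 : ∀ k, Matrix.toLin' (bz e z) v k = v k + (if k = 0 then (z - 1) / e 0 *
      ∑ j, e j * v j else 0) := by
    intro k
    rw [Matrix.toLin'_apply, Matrix.mulVec, dotProduct]
    simp only [bz, add_mul, Finset.sum_add_distrib]
    congr 1
    · simp
    · by_cases hk : k = 0
      · simp only [hk, if_true]
        rw [Finset.mul_sum]
        apply Finset.sum_congr rfl
        intro j _
        ring
      · simp [hk]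
  have h2 : ∑ k, nv e z⁻¹ u k * Matrix.toLin' (bz e z) v k = ∑ k, nv e z⁻¹ u k * v k +
      nv e z⁻¹ u 0 * ((z - 1) / e 0 * ∑ j, e j * v j) := by
    simp only [h1, mul_add, Finset.sum_add_distrib]
    congr 1
    rw [Finset.sum_eq_single 0]
    · simp
    · intro k _ hk
      simp [hk]
    · simp
  rw [h2]
  set I := inner ℂ e u with hI
  have h3 : ∀ k, nv e z⁻¹ u k = u k + (I - u 0 / e 0) * e k + z⁻¹ * ((u 0 / e 0 - I) * e k) := by
    intro k
    simp [nv, ← hI]
  have h4 : ∀ k, (u + ((z - 1) * I) • e) k = u k + (z - 1) * I * e k := by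
    intro k
    simp
  simp only [h3, h4]
  have h5 : ∑ k, (u k + (I - u 0 / e 0) * e k + z⁻¹ * ((u 0 / e 0 - I) * e k)) * v k =
      ∑ k, u k * v k + ((I - u 0 / e 0) + z⁻¹ * (u 0 / e 0 - I)) * ∑ k, e k * v k := by
    rw [Finset.mul_sum, ← Finset.sum_add_distrib]
    apply Finset.sum_congr rfl
    intro k _
    ring
  have h6 : ∑ k, (u k + (z - 1) * I * e k) * v k =
      ∑ k, u k * v k + (z - 1) * I * ∑ k, e k * v k := by
    rw [Finset.mul_sum, ← Finset.sum_add_distrib]
    apply Finset.sum_congr rfl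
    intro k _
    ring
  rw [h5, h6]
  generalize ∑ k, u k * v k = U
  generalize ∑ k, e k * v k = V
  generalize u 0 = u0 at *
  field_simp
  ring

theorem rowHW : RowHW := by
  classical
  intro a b n lam l hx u e _ he
  obtain ⟨P, hP⟩ := exists_poly b (formOf l)
    (fun i => lin (u i - (inner ℂ e (u i)) • e)) (fun i => lin ((inner ℂ e (u i)) • e))
  obtain ⟨r, hr⟩ := exists_poly b (formOf l)
    (fun i => lin (u i + (inner ℂ e (u i) - u i 0 / e 0) • e))
    (fun i => lin ((u i 0 / e 0 - inner ℂ e (u i)) • e))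
  have hP' : ∀ z : ℂ, formOf l (fun i => lin (u i + ((z - 1) * inner ℂ e (u i)) • e) ^ b) =
      P.eval z := by
    intro z
    rw [← hP z]
    congr 1
    funext i
    rw [← lin_smul, ← lin_add]
    congr 2
    rw [sub_mul, one_mul, sub_smul, smul_smul]
    abel
  have hr' : ∀ s : ℂ, formOf l (fun i => lin (nv e s (u i)) ^ b) = r.eval s := by
    intro s
    rw [← hr s]
    congr 1
    funext i
    rw [← lin_smul, ← lin_add]
    rfl
  have key : ∀ z : ℂ, z ≠ 0 → P.eval z = z ^ lam 0 * r.eval z⁻¹ := by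
    intro z hz
    rw [← hP' z, ← hr' z⁻¹, form_pow, form_pow]
    have h1 := symEval_act (Matrix.toLin' (bz e z))
      (fun i (_ : Fin b) => fn (nv e z⁻¹ (u i))) (elOf l)
    have h2 : symMap a (symMap b (Matrix.toLin' (bz e z))) (elOf l) =
        (∏ i, bz e z i i ^ lam i) • elOf l := hx _ (bz_borel e z he hz)
    rw [h2, map_smul, smul_eq_mul, bz_prod e z he] at h1
    simp only [fn_comp e z he hz] at h1
    exact h1.symm
  refine ⟨P, ?_, fun z _ => hP' z⟩
  -- degree bound
  have hpoly : P * Polynomial.X ^ r.natDegree = Polynomial.X ^ lam 0 * r.reverse := by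
    apply Polynomial.eq_of_infinite_eval_eq
    apply Set.Infinite.mono (s := {z : ℂ | z ≠ 0})
    · intro z hz
      have hz' : z ≠ 0 := hz
      simp only [Set.mem_ofPred_eq, Polynomial.eval_mul, Polynomial.eval_pow, Polynomial.eval_X]
      rw [key z hz']
      have h3 : r.reverse.eval z = z ^ r.natDegree * r.eval z⁻¹ := by
        let _ : Invertible z⁻¹ := invertibleOfNonzero (inv_ne_zero hz')
        have h4 := Polynomial.eval₂_reverse_mul_pow (RingHom.id ℂ) z⁻¹ r
        rw [invOf_eq_inv, inv_inv, Polynomial.eval₂_id, Polynomial.eval₂_id] at h4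
        rw [← h4, inv_pow]
        field_simp
      rw [h3]
      ring
    · exact Set.Infinite.mono (fun z hz => hz) (Set.finite_singleton (0 : ℂ)).infinite_compl
  by_cases hP0 : P = 0
  · rw [hP0]; simp
  have h5 := congrArg Polynomial.natDegree hpoly
  rw [Polynomial.natDegree_mul_X_pow _ hP0] at h5
  have h6 : (Polynomial.X ^ lam 0 * r.reverse).natDegree ≤ lam 0 + r.natDegree := by
    refine Polynomial.natDegree_mul_le.trans ?_
    rw [Polynomial.natDegree_X_pow]
    exact Nat.add_le_add_left (Polynomial.reverse_natDegree_le r) _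
  omega

end Vale.Agent.P181.H508
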